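import Vale.Agent.P359.CoreGap
import Vale.Agent.P359.Spectral
import Vale.Agent.P359.Assemble

namespace Vale.Agent.Results.P359.Gap

open Vale.Agent.P359

theorem result : ∃ δ : ℝ, 1 / 10 ≤ δ ∧ ∃ N₀ : ℕ, ∀ N : ℕ, N₀ ≤ N →
    ∀ ψ : Tens N (3 * (N - 1)), IsFermionic ψ →
      δ * reInner ψ (ψ - lineProj (laughlin N) ψ) ≤ reInner ψ (ham ψ) := by
  obtain ⟨Q₀, hQ₀⟩ := Filter.eventually_atTop.mp core_gap
  refine ⟨1 / 10, le_rfl, Q₀ + 2, fun N hN ψ hψ => ?_⟩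
  obtain ⟨n, rfl⟩ : ∃ n, N = n + 2 := ⟨N - 2, by omega⟩
  exact gap_of_fockGap (by norm_num)
    (fockGap_of_coreGap (by omega) (hQ₀ _ (by omega))) ψ hψ

end Vale.Agent.Results.P359.Gap
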